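import Mathlib
import Vale.Agent.P066.Defs
import Vale.Agent.P066.Transfer
import Vale.Agent.P066.Uniq

namespace Vale.Agent.Results.P066.CliqueThree

open Finset _root_.P066

theorem chrom_eq_P0 (h : ℕ → ℕ) (n N : ℕ) : chrom h n N = P0 h (qN N) (xN N) n := by
  unfold chrom P0
  refine Finset.sum_congr rfl (fun f _ => ?_)
  rw [Z_eq]
  split_ifs
  · simp [qN, xN]
  · rfl

theorem chrom_congr {h h' : ℕ → ℕ} {n : ℕ} (hh : ∀ i, 1 ≤ i → i ≤ n → h i = h' i) (N : ℕ) :
    chrom h n N = chrom h' n N := by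
  have hadj : ∀ a b : Fin n, Adj h a b ↔ Adj h' a b := by
    intro a b
    unfold Adj
    rw [hh (a + 1) (by omega) (by have := a.2; omega)]
  unfold chrom
  refine Finset.sum_congr rfl (fun f _ => ?_)
  have h1 : IsProper h f ↔ IsProper h' f := by
    unfold IsProper
    simp only [hadj]
  have h2 : asc h f = asc h' f := by
    unfold asc
    simp only [hadj]
  simp only [h1, h2]

theorem bandwidth_two (n : ℕ) (h : ℕ → ℕ) (hh : IsHess n h)
    (hb : ∀ i, 1 ≤ i → i ≤ n → h i ≤ i + 2) :
    ∃ c : n.Partition → Polynomial ℤ, IsEExp n h c ∧ ∀ μ k, 0 ≤ (c μ).coeff k := by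
  set h' : ℕ → ℕ := fun i => if i ≤ n then h i else i with hh'
  have e : ∀ i, 1 ≤ i → i ≤ n → h i = h' i := fun i _ hi => by simp [hh', hi]
  have mono : ∀ i j, 1 ≤ i → i ≤ j → h' i ≤ h' j := by
    intro i j hi hij
    simp only [hh']
    split_ifs with h1 h2 h2
    · exact hh.mono i j hi hij h2
    · have := hh.bd i hi h1; omega
    · omega
    · exact hij
  have bw : ∀ i, 1 ≤ i → h' i ≤ i + 2 := by
    intro i hi
    simp only [hh']
    split_ifs with h1
    · exact hb i hi h1
    · omega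
  obtain ⟨c, hc, hexp⟩ := exists_expansion (main_induction h' mono bw n).1
  refine ⟨c, fun N => ?_, hc⟩
  rw [chrom_congr e N, chrom_eq_P0]
  exact hexp N

theorem chrom_three (n : ℕ) (h : ℕ → ℕ) (hh : IsHess n h) (i : ℕ) (hi : 1 ≤ i) (hin : i ≤ n)
    (h3 : i + 3 ≤ h i) : chrom h n 3 = 0 := by
  have hn : i + 3 ≤ n := h3.trans (hh.bd i hi hin)
  unfold chrom
  refine Finset.sum_eq_zero (fun f _ => ?_)
  rw [if_neg]
  intro hf
  have hadj : ∀ t t' : ℕ, t < t' → t' < 4 → Adj h (i - 1 + t) (i - 1 + t') := by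
    intro t t' h1 h2
    refine ⟨by omega, ?_⟩
    have := hh.mono i (i - 1 + t + 1) hi (by omega) (by omega)
    omega
  have hinj : Function.Injective (fun t : Fin 4 => f ⟨i - 1 + t, by omega⟩) := by
    intro t t' htt
    by_contra hne
    rcases lt_or_gt_of_ne (fun hv : (t : ℕ) = t' => hne (Fin.ext hv)) with hlt | hlt
    · exact hf ⟨i - 1 + t, by omega⟩ ⟨i - 1 + t', by omega⟩ (hadj t t' hlt t'.2) htt
    · exact hf ⟨i - 1 + t', by omega⟩ ⟨i - 1 + t, by omega⟩ (hadj t' t hlt t.2) htt.symm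
  have := Fintype.card_le_of_injective _ hinj
  simp at this

/-- **Main result.** Let `G = G(h)` be a natural unit interval graph on `n` vertices.

1. If `h i ≤ i + 2` for all `i` (equivalently `G` has no clique with four vertices), then the
chromatic quasisymmetric function of `G` has an expansion in the elementary basis all of whose
coefficients are polynomials in `q` with nonnegative coefficients.

2. For every expansion of the chromatic quasisymmetric function of `G` in the elementary basis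
(there is at most one by `uniq`), the coefficient `c μ` has nonnegative coefficients as soon as
`h i ≤ i + 2` for all `i`, or all parts of `μ` are at most `3`. -/
theorem result (n : ℕ) (h : ℕ → ℕ) (hh : IsHess n h) :
    ((∀ i, 1 ≤ i → i ≤ n → h i ≤ i + 2) →
      ∃ c : n.Partition → Polynomial ℤ, IsEExp n h c ∧ ∀ μ k, 0 ≤ (c μ).coeff k) ∧
    (∀ c c' : n.Partition → Polynomial ℤ, IsEExp n h c → IsEExp n h c' → c = c') ∧
    (∀ c : n.Partition → Polynomial ℤ, IsEExp n h c → ∀ μ : n.Partition,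
      ((∀ i, 1 ≤ i → i ≤ n → h i ≤ i + 2) ∨ (∀ k ∈ μ.parts, k ≤ 3)) →
        ∀ k, 0 ≤ (c μ).coeff k) := by
  refine ⟨bandwidth_two n h hh, fun c c' => uniq, fun c hc μ hμ k => ?_⟩
  by_cases hb : ∀ i, 1 ≤ i → i ≤ n → h i ≤ i + 2
  · obtain ⟨c', hc', hpos⟩ := bandwidth_two n h hh hb
    rw [uniq hc hc']
    exact hpos μ k
  · have hμ3 : ∀ k ∈ μ.parts, k ≤ 3 := hμ.resolve_left hb
    simp only [not_forall] at hb
    obtain ⟨i, hi, hin, h3⟩ := hb
    have h0 := chrom_three n h hh i hi hin (by omega)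
    rw [hc 3] at h0
    rw [indep n 3 c h0 μ hμ3]
    simp

end Vale.Agent.Results.P066.CliqueThree
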